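import Vale.Agent.P102.Reduce

namespace Vale.Agent.Results.P102.Rokhlin
open MeasureTheory Filter Topology

/-- `T` is mixing: `μ (A ∩ T^{-n} B) → μ A * μ B` as `|n| → ∞`. -/
def IsMixing {Ω : Type*} [MeasurableSpace Ω] (μ : Measure Ω) (T : Ω ≃ᵐ Ω) : Prop :=
  ∀ A B : Set Ω, MeasurableSet A → MeasurableSet B →
    Tendsto (fun n : ℤ => μ.real (A ∩ (T.toEquiv ^ n : Equiv.Perm Ω) ⁻¹' B))
      (Filter.comap (fun n : ℤ => |n|) atTop) (𝓝 (μ.real A * μ.real B))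

/-- `T` is mixing of order `k`: the measure of `⋂ T^{-t i} (A i)` tends to the product as all
consecutive gaps `t (i+1) - t i` tend to infinity. -/
def IsMixingOfOrder {Ω : Type*} [MeasurableSpace Ω] (μ : Measure Ω) (T : Ω ≃ᵐ Ω) (k : ℕ) : Prop :=
  ∀ A : Fin k → Set Ω, (∀ i, MeasurableSet (A i)) → ∀ ε : ℝ, 0 < ε → ∃ N : ℤ, ∀ t : Fin k → ℤ,
    (∀ i j : Fin k, (j : ℕ) = i + 1 → N ≤ t j - t i) →
      |μ.real (⋂ i, (T.toEquiv ^ t i : Equiv.Perm Ω) ⁻¹' A i) - ∏ i, μ.real (A i)| < ε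

lemma mp_zpow {Ω : Type*} [MeasurableSpace Ω] (μ : Measure Ω) (T : Ω ≃ᵐ Ω)
    (hT : MeasurePreserving T μ μ) (n : ℤ) :
    MeasurePreserving (T.toEquiv ^ n : Equiv.Perm Ω) μ μ := by
  induction n using Int.induction_on with
  | zero => simpa using MeasurePreserving.id μ
  | succ n ih =>
    rw [zpow_add_one, Equiv.Perm.coe_mul]
    exact ih.comp hT
  | pred n ih =>
    rw [zpow_sub_one, Equiv.Perm.coe_mul]
    exact ih.comp (hT.symm T)

lemma gaps {k : ℕ} (t : Fin k → ℤ) (N : ℕ)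
    (h : ∀ i j : Fin k, (j : ℕ) = i + 1 → (N : ℤ) ≤ t j - t i) (i j : Fin k) (hij : i < j) :
    (N : ℤ) ≤ t j - t i := by
  obtain ⟨j, hj⟩ := j
  obtain ⟨i, hi⟩ := i
  have hij' : i < j := hij
  induction j with
  | zero => omega
  | succ j ih =>
    rcases Nat.lt_succ_iff_lt_or_eq.1 hij' with h1 | h1
    · have h2 := ih (by omega) h1 h1
      have h3 := h ⟨j, by omega⟩ ⟨j + 1, hj⟩ rfl
      have h4 : (0 : ℤ) ≤ N := Int.natCast_nonneg N
      linarith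
    · subst h1
      exact h ⟨i, hi⟩ ⟨i + 1, hj⟩ rfl

theorem result {Ω : Type*} [MeasurableSpace Ω] (μ : Measure Ω) [IsProbabilityMeasure μ]
    (T : Ω ≃ᵐ Ω) (hT : MeasurePreserving T μ μ) (hmix : IsMixing μ T) :
    ∀ k : ℕ, 2 ≤ k → IsMixingOfOrder μ T k := by
  intro k _
  have h := Vale.Agent.P102.mixOrd_all (μ := μ)
    (τ := fun n : ℤ => ⇑(T.toEquiv ^ n : Equiv.Perm Ω)) (mp_zpow μ T hT)
    (fun m m' y => by simp [zpow_add]) (fun y => by simp) (fun A B hA hB => by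
      refine (hmix A B hA hB).comp ?_
      rw [tendsto_comap_iff]
      exact tendsto_abs_atTop_atTop.comp tendsto_natCast_atTop_atTop) k
  intro A hA ε hε
  obtain ⟨N, hN⟩ := h A hA ε hε
  exact ⟨N, fun t ht => hN t (gaps t N ht)⟩

end Vale.Agent.Results.P102.Rokhlin
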